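import Vale.Agent.P063.Defs
import Vale.Agent.P063.Main

namespace Vale.Agent.Results.P063.Width

open Vale.Agent.P063

theorem result (r : ℕ) (hr : 2 ≤ r) :
    ∃ C : ℝ, 0 < C ∧ ∀ n : ℕ, r ≤ n → ∀ P : Set (Hyp n r), Invariant P →
      (∀ p : ℝ, 0 < p → p < 1 →
        mu p P * (1 - mu p P) * Real.log n ^ ((r : ℝ) / ((r : ℝ) - 1)) ≤ C * influence p P) ∧
      (Increasing P → P ≠ ∅ → P ≠ Set.univ → ∀ ε : ℝ, 0 < ε → ε < 1 / 2 →
        width ε P ≤ C * Real.log (1 / (2 * ε)) / Real.log n ^ ((r : ℝ) / ((r : ℝ) - 1))) := by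
  refine ⟨4 * (3200 * r + 4001 ^ 2), by positivity, fun n hn P hP => ⟨fun p h0 h1 => ?_,
    fun hI hne hnu ε hε hε2 => width_bound hr hn P hP hI hne hnu hε hε2⟩⟩
  refine (influence_bound hr hn P hP h0 h1).trans (mul_le_mul_of_nonneg_right ?_ ?_)
  · have : (0 : ℝ) ≤ 3200 * r + 4001 ^ 2 := by positivity
    linarith
  · rw [influence_eq]
    exact Finset.sum_nonneg fun e _ => Ex_nonneg h0.le h1.le fun x => abs_nonneg _

end Vale.Agent.Results.P063.Width
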